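import Vale.Agent.P331.H300.HC
import Vale.Agent.P331.F.Rows

/-!
# Row A3
-/

set_option autoImplicit false
set_option linter.unusedSectionVars false

namespace Vale.Agent.P331.H300

open Finset Vale.Agent.P331.H489 Vale.Agent.P331.H250 Vale.Agent.P331.F
open scoped Classical

theorem ind_eq_ite (P : Prop) [h : Decidable P] : F.ind P = if P then 1 else 0 := by
  unfold F.ind
  split_ifs <;> rfl

section

variable {E : Type} [Fintype E]

theorem TH_univ_ite (q : ℝ) (U : Finset E) (f : Finset E → ℝ) :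
    TH (fun e => if e ∈ U then q else 0) univ f = Th q U f := by
  unfold Th TH
  refine EX_congr (fun e b => ?_) fun _ => rfl
  by_cases he : e ∈ U <;> cases b <;> simp [H250.bw, he]

/-- weights of the four labels inside `U` -/
noncomputable def wU (p g : ℝ) (U : Finset E) (e : E) : L4 → ℝ
  | .v => if e ∈ U then p else 0
  | .g => if e ∈ U then (1 - p) * g else 0
  | .s => if e ∈ U then (1 - p) * (1 - g) else 0
  | .o => if e ∈ U then 0 else 1

/-- from nested thinnings to four labels -/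
theorem Th_Th_eq (p g : ℝ) (U : Finset E) (F : Finset E → Finset E → Finset E → ℝ) :
    Th p U (fun V => Th g (U \ V) (fun G => F V G ((U \ V) \ G))) =
      EX (wU p g U) (fun μ => F (ls .v μ) (ls .g μ) (ls .s μ)) := by
  unfold Th
  rw [TH_TH]
  let f : L4 → Option Bool := fun l => match l with
    | .v => some true
    | .g => some false
    | .s => none
    | .o => none
  have h1 := EX_push f (wU p g U) (fun ω : E → Option Bool =>
    F (lset (some true) ω) (lset (some false) ω)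
      ((U \ lset (some true) ω) \ lset (some false) ω))
  have h2 : EX (wU p g U) (fun μ => F (ls .v μ) (ls .g μ) (ls .s μ)) =
      EX (wU p g U) (fun μ => F (lset (some true) (f ∘ μ)) (lset (some false) (f ∘ μ))
        ((U \ lset (some true) (f ∘ μ)) \ lset (some false) (f ∘ μ))) := by
    refine EX_congr_supp fun μ hμ => ?_
    have e1 : lset (some true) (f ∘ μ) = ls .v μ := by
      ext e
      simp only [mem_lset, ls, mem_filter, mem_univ, true_and, Function.comp, f]
      cases μ e <;> simp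
    have e2 : lset (some false) (f ∘ μ) = ls .g μ := by
      ext e
      simp only [mem_lset, ls, mem_filter, mem_univ, true_and, Function.comp, f]
      cases μ e <;> simp
    have e3 : (U \ ls .v μ) \ ls .g μ = ls .s μ := by
      ext e
      simp only [ls, mem_sdiff, mem_filter, mem_univ, true_and]
      have he := hμ e
      by_cases hU : e ∈ U
      · cases h : μ e
        · simp
        · simp
        · simp [hU]
        · rw [h] at he
          simp [wU, hU] at he
      · cases h : μ e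
        · rw [h] at he
          simp [wU, hU] at he
        · rw [h] at he
          simp [wU, hU] at he
        · rw [h] at he
          simp [wU, hU] at he
        · simp [hU]
    rw [e1, e2, e3]
  rw [h2, h1]
  unfold T2
  refine EX_congr (fun e c => ?_) fun _ => rfl
  rw [sum_filter, sum_L4]
  by_cases he : e ∈ U
  · rcases c with _ | _ | _ <;> simp [bw2, f, he, wU] <;> ring
  · rcases c with _ | _ | _ <;> simp [bw2, f, he, wU]

/-- the numbers -/
theorem rates_num {q : ℕ} (hq : 2 ≤ q) {n g p : ℝ} (hn : 0 < n) (hn1 : n ≤ 1 / (4 * 4 ^ q))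
    (hg : 0 < g) (hg1 : g ≤ (n / 2) ^ q / (4 * 4 ^ q)) (hp : 0 < p)
    (hp1 : p ≤ (n / 2) ^ q / 2) {x s t : ℝ} (hx : x = (1 - p) * g) (hs : s = (1 - p) * (1 - g))
    (ht : t = n / (1 - g)) :
    p ≤ 1 / 4 ∧ g ≤ 1 / 4 ∧ 0 < t ∧ t ≤ 1 ∧ s * t = (1 - p) * n ∧
    (2 * q - 1 : ℝ) * (x + s * t ^ 2) ≤ x + s * t ∧
    4 ^ q * (x + s * t ^ 2) ≤ q * (x + s * t) ∧
    4 ^ q * (x + s * t ^ (2 * q)) + p ≤ (x + s * t) ^ q := by
  set K : ℝ := 4 ^ q with hK
  have hK16 : 16 ≤ K := by
    have : (4 : ℝ) ^ 2 ≤ 4 ^ q := pow_le_pow_right₀ (by norm_num) hq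
    rw [hK]; linarith
  have hKn : 4 * K * n ≤ 1 := by
    rw [le_div_iff₀ (by positivity)] at hn1
    linarith
  have hn64 : n ≤ 1 / 64 := by nlinarith
  set N : ℝ := (n / 2) ^ q with hN
  have hN0 : 0 < N := by positivity
  have hN1 : N ≤ n / 2 := by
    have := pow_le_pow_of_le_one (by positivity : 0 ≤ n / 2) (by linarith : n / 2 ≤ 1)
      (by omega : 1 ≤ q)
    simpa using this
  have hKg : 4 * K * g ≤ N := by
    rw [le_div_iff₀ (by positivity)] at hg1
    linarith
  have hg4 : g ≤ 1 / 4 := by nlinarith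
  have hp4 : p ≤ 1 / 4 := by linarith
  have hg1' : 0 < 1 - g := by linarith
  have hst : s * t = (1 - p) * n := by
    rw [hs, ht]; field_simp
  have hx0 : 0 ≤ x := by rw [hx]; exact mul_nonneg (by linarith) hg.le
  have hxg : x ≤ g := by rw [hx]; nlinarith
  have hs0 : 1 / 2 ≤ s := by rw [hs]; nlinarith
  have hs1 : s ≤ 1 := by rw [hs]; nlinarith
  have ht0 : 0 < t := by rw [ht]; exact div_pos hn hg1'
  have ht2 : t ≤ 2 * n := by
    rw [ht, div_le_iff₀ hg1']; nlinarith
  have ht32 : t ≤ 1 / 32 := by linarith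
  have hKt : K * t ≤ 1 / 2 := by nlinarith
  have hst2 : n / 2 ≤ s * t := by rw [hst]; nlinarith
  have hst0 : 0 < s * t := by linarith
  have hstq : N ≤ (s * t) ^ q := pow_le_pow_left₀ (by positivity) hst2 q
  have hKx : K * x ≤ N / 4 := by nlinarith
  have a1 : K * (x + s * t ^ 2) ≤ s * t := by
    have h1 : K * (s * t ^ 2) ≤ (s * t) / 2 := by
      have h2 : K * (s * t ^ 2) = (K * t) * (s * t) := by ring
      rw [h2]
      have := mul_le_mul_of_nonneg_right hKt hst0.le
      linarith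
    rw [mul_add]
    linarith
  have a2 : (2 * q - 1 : ℝ) ≤ K := by
    have h1 : 2 * q < 2 ^ (2 * q) := Nat.lt_pow_self (by norm_num)
    have h2 : (2 : ℕ) ^ (2 * q) = 4 ^ q := by rw [pow_mul]; norm_num
    rw [h2] at h1
    have h3 : ((2 * q : ℕ) : ℝ) < ((4 ^ q : ℕ) : ℝ) := by exact_mod_cast h1
    push_cast at h3
    linarith
  have hq1 : (1 : ℝ) ≤ q := by exact_mod_cast (by omega : 1 ≤ q)
  have hxs : 0 ≤ x + s * t ^ 2 := by positivity
  have b1 : (2 * q - 1 : ℝ) * (x + s * t ^ 2) ≤ x + s * t := by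
    have := mul_le_mul_of_nonneg_right a2 hxs
    linarith
  have b2 : K * (x + s * t ^ 2) ≤ q * (x + s * t) := by
    have h1 : 1 * (x + s * t) ≤ q * (x + s * t) :=
      mul_le_mul_of_nonneg_right hq1 (by linarith)
    linarith
  have b3 : K * (x + s * t ^ (2 * q)) + p ≤ (x + s * t) ^ q := by
    have c1 : K * (s * t ^ (2 * q)) ≤ (s * t) ^ q / 4 := by
      have d1 : K * t ^ q ≤ (1 / 4) * (1 / 2) ^ q := by
        have e1 : K * t ^ q = (4 * t) ^ q := by rw [hK, mul_pow]
        have e2 : (4 * t) ^ q ≤ (1 / 8) ^ q :=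
          pow_le_pow_left₀ (by positivity) (by linarith) q
        have e3 : (1 / 8 : ℝ) ^ q = (1 / 4) ^ q * (1 / 2) ^ q := by
          rw [← mul_pow]; norm_num
        have e4 : (1 / 4 : ℝ) ^ q ≤ 1 / 4 := by
          have := pow_le_pow_of_le_one (by norm_num : (0:ℝ) ≤ 1 / 4) (by norm_num)
            (by omega : 1 ≤ q)
          simpa using this
        rw [e1]
        refine e2.trans ?_
        rw [e3]
        exact mul_le_mul_of_nonneg_right e4 (by positivity)
      have d2 : (1 / 2 : ℝ) ^ q ≤ s ^ q := pow_le_pow_left₀ (by norm_num) hs0 q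
      have d3 : K * (s * t ^ (2 * q)) = s * (K * t ^ q) * t ^ q := by
        rw [two_mul, pow_add]; ring
      rw [d3, mul_pow]
      have d4 : s * (K * t ^ q) ≤ s ^ q / 4 := by
        have : s * (K * t ^ q) ≤ 1 * (K * t ^ q) :=
          mul_le_mul_of_nonneg_right hs1 (by positivity)
        linarith
      calc s * (K * t ^ q) * t ^ q ≤ s ^ q / 4 * t ^ q :=
            mul_le_mul_of_nonneg_right d4 (by positivity)
        _ = s ^ q * t ^ q / 4 := by ring
    have c2 : (s * t) ^ q ≤ (x + s * t) ^ q := pow_le_pow_left₀ hst0.le (by linarith) q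
    rw [mul_add]
    linarith
  exact ⟨hp4, hg4, ht0, by linarith, hst, b1, b2, b3⟩

/-- (H) for small rates -/
theorem hc_rates {q : ℕ} (hq : 2 ≤ q) {n g p : ℝ} (hn : 0 < n) (hn1 : n ≤ 1 / (4 * 4 ^ q))
    (hg : 0 < g) (hg1 : g ≤ (n / 2) ^ q / (4 * 4 ^ q)) (hp : 0 < p)
    (hp1 : p ≤ (n / 2) ^ q / 2) : HC p g n q := by
  intro E _ P U κ δ hδ
  obtain ⟨x, hx⟩ : ∃ x, x = (1 - p) * g := ⟨_, rfl⟩
  obtain ⟨s, hs⟩ : ∃ s, s = (1 - p) * (1 - g) := ⟨_, rfl⟩
  obtain ⟨t, ht⟩ : ∃ t, t = n / (1 - g) := ⟨_, rfl⟩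
  obtain ⟨hp4, hg4, ht0, ht1, hst, b1, b2, b3⟩ := rates_num hq hn hn1 hg hg1 hp hp1 hx hs ht
  rw [← ht]
  -- the inequality for the four labels
  have hw : ∀ (e : E) l, 0 ≤ wU p g U e l := by
    intro e l
    have h1 : 0 ≤ (1 - p) * g := mul_nonneg (by linarith) hg.le
    have h2 : 0 ≤ (1 - p) * (1 - g) := mul_nonneg (by linarith) (by linarith)
    cases l <;> simp only [wU] <;> split_ifs <;> linarith
  have hwsum : ∀ e : E, ∑ l, wU p g U e l = 1 := by
    intro e
    rw [sum_L4]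
    by_cases he : e ∈ U
    · simp [wU, he]; ring
    · simp [wU, he]
  have hq0 : q ≠ 0 := by omega
  have main := hc_four (E := E) hq (wU p g U) hw hwsum (fun _ => t) (fun _ => ht0.le)
    (fun _ => ht1) (η := 1 / 2) (by norm_num) le_rfl
    (fun e => by
      by_cases he : e ∈ U
      · simp only [wU, if_pos he]
        rw [← hx, ← hs]
        exact b1
      · simp [wU, he])
    (fun e => by
      by_cases he : e ∈ U
      · simp only [wU, if_pos he]
        rw [← hx, ← hs]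
        exact b2
      · simp [wU, he])
    (fun e => by
      by_cases he : e ∈ U
      · simp only [wU, if_pos he]
        rw [← hx, ← hs]
        exact b3
      · simp [wU, he, hq0])
    (fun A => F.ind (P A)) (fun A => by unfold F.ind; split_ifs <;> norm_num)
    (fun μ => ∃ Y ⊆ ls .v μ, Y.card ≤ κ ∧
      δ ≤ TH (fun _ => t) (ls .s μ) fun N => F.ind (P (Y ∪ ls .g μ ∪ N))) hδ.le κ
    (fun μ h => h)
  have hL : Th p U (fun V => Th g (U \ V) (fun G => F.ind
      (∃ Y ⊆ V, Y.card ≤ κ ∧ δ ≤ Th t ((U \ V) \ G)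
        (fun N => F.ind (P (Y ∪ G ∪ N)))))) = EX (wU p g U) (fun μ =>
      if ∃ Y ⊆ ls .v μ, Y.card ≤ κ ∧
        δ ≤ TH (fun _ => t) (ls .s μ) (fun N => F.ind (P (Y ∪ ls .g μ ∪ N))) then 1 else 0) := by
    rw [Th_Th_eq p g U (fun V G S => F.ind
      (∃ Y ⊆ V, Y.card ≤ κ ∧ δ ≤ Th t S (fun N => F.ind (P (Y ∪ G ∪ N)))))]
    exact EX_congr (fun _ _ => rfl) fun μ => ind_eq_ite _
  have hR : TH (fun e => wU p g U e .g + wU p g U e .s * t) univ (fun A => F.ind (P A) ^ 2) =
      Th ((1 - p) * (g + n)) U (fun N => F.ind (P N)) := by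
    rw [← TH_univ_ite]
    refine TH_congr (fun e _ => ?_) (fun A _ => ?_)
    · by_cases he : e ∈ U
      · simp only [wU, if_pos he]
        rw [← hs, hst]; ring
      · simp [wU, he]
    · unfold F.ind; split_ifs <;> norm_num
  rw [hL]
  rw [hR] at main
  have hpos : 0 < ((1 / 2 : ℝ) ^ κ * δ) ^ (2 * q) := by positivity
  have hfin : (2 ^ κ / δ) ^ (2 * q) * ((1 / 2 : ℝ) ^ κ * δ) ^ (2 * q) = 1 := by
    rw [← mul_pow]
    have : 2 ^ κ / δ * ((1 / 2 : ℝ) ^ κ * δ) = 1 := by
      rw [one_div, inv_pow]; field_simp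
    rw [this, one_pow]
  calc _ = (2 ^ κ / δ) ^ (2 * q) * (((1 / 2 : ℝ) ^ κ * δ) ^ (2 * q) * _) := by
        rw [← mul_assoc, hfin, one_mul]
    _ ≤ _ := mul_le_mul_of_nonneg_left main (by positivity)

end

theorem HC_one_of_two {p g n : ℝ} (hp : 0 ≤ p) (hp1 : p ≤ 1) (hg : 0 ≤ g) (hg1 : g ≤ 1)
    (h0 : 0 ≤ (1 - p) * (g + n)) (h1 : (1 - p) * (g + n) ≤ 1)
    (h : HC p g n 2) : HC p g n 1 := by
  intro E _ P U κ δ hδ
  have h2 := h E P U κ δ hδ
  set A := Th p U (fun V => Th g (U \ V) (fun G => F.ind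
      (∃ Y ⊆ V, Y.card ≤ κ ∧ δ ≤ Th (n / (1 - g)) ((U \ V) \ G)
        (fun N => F.ind (P (Y ∪ G ∪ N)))))) with hA
  set J := Th ((1 - p) * (g + n)) U (fun N => F.ind (P N)) with hJ
  have ind0 : ∀ Q : Prop, 0 ≤ F.ind Q := fun Q => by unfold F.ind; split_ifs <;> norm_num
  have ind1 : ∀ Q : Prop, F.ind Q ≤ 1 := fun Q => by unfold F.ind; split_ifs <;> norm_num
  have hA0 : 0 ≤ A := TH_nonneg (fun _ => hp) (fun _ => hp1) _ fun V _ =>
    TH_nonneg (fun _ => hg) (fun _ => hg1) _ fun G _ => ind0 _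
  have hA1 : A ≤ 1 := by
    refine le_trans (TH_mono (fun _ => hp) (fun _ => hp1) _ (g := fun _ => (1 : ℝ))
      fun V _ => ?_) (le_of_eq (TH_const _ _ _))
    refine le_trans (TH_mono (fun _ => hg) (fun _ => hg1) _ (g := fun _ => (1 : ℝ))
      fun G _ => ?_) (le_of_eq (TH_const _ _ _))
    exact ind1 _
  have hJ0 : 0 ≤ J := TH_nonneg (fun _ => h0) (fun _ => h1) _ fun N _ => ind0 _
  have h3 : A ^ 2 ≤ ((2 ^ κ / δ) ^ (2 * 1) * J ^ 1) ^ 2 := by
    calc A ^ 2 ≤ A := by nlinarith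
      _ ≤ _ := h2
      _ = _ := by ring
  exact (sq_le_sq₀ hA0 (by positivity)).1 h3

theorem rowA3 : RowA3 := by
  intro r hr
  set q : ℕ := max r 2 with hqdef
  have hq : 2 ≤ q := le_max_right _ _
  refine ⟨1 / (4 * 4 ^ q), by positivity, fun n hn hn1 => ?_⟩
  refine ⟨(n / 2) ^ q / (4 * 4 ^ q), by positivity, fun g hg hg1 => ?_⟩
  refine ⟨(n / 2) ^ q / 2, by positivity, fun p hp hp1 => ?_⟩
  have h := hc_rates hq hn hn1 hg hg1 hp hp1
  rcases Nat.lt_or_ge r 2 with h2 | h2
  · have hr1 : r = 1 := by omega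
    have hq2 : q = 2 := by rw [hqdef, hr1]; rfl
    rw [hq2] at h hn1 hg1 hp1
    rw [hr1]
    have e1 : n ≤ 1 / 64 := by norm_num at hn1; linarith
    have e2 : (n / 2) ^ 2 ≤ 1 := by nlinarith
    have e3 : g ≤ 1 / 4 := by norm_num at hg1; nlinarith
    have e4 : p ≤ 1 / 2 := by linarith
    exact HC_one_of_two hp.le (by linarith) hg.le (by linarith) (by nlinarith) (by nlinarith) h
  · have hqr : q = r := max_eq_left h2
    rw [hqr] at h
    exact h

end Vale.Agent.P331.H300
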