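import Vale.Agent.P331.H489.Ex
import Vale.Agent.P331.H830.Bes
import Vale.Agent.P331.H318.HCS
import Vale.Agent.P331.H250.Ker

/-!
# The hypercontractive inequality with contexts

Independent labels; `k e l` is the probability that an element of label `l` is put into the natural
random set, `c e l` is the price for forcing it into the set.
-/

set_option autoImplicit false
set_option linter.unusedSectionVars false

namespace Vale.Agent.P331.H300

open Finset Vale.Agent.P331.H489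

section Mink

variable {E L : Type*} [Fintype E] [DecidableEq E] [Fintype L] [DecidableEq L]

theorem mink_pos {q : ℕ} {w : E → L → ℝ} (hw : ∀ e l, 0 ≤ w e l) {s t : ℝ} (hs : 0 < s)
    (ht : 0 < t) {F G : (E → L) → ℝ} (hF : ∀ ω, 0 ≤ F ω) (hG : ∀ ω, 0 ≤ G ω) {A B : ℝ}
    (hA : 0 < A) (hB : 0 < B) (h1 : EX w (fun ω => F ω ^ q) ≤ A ^ q)
    (h2 : EX w (fun ω => G ω ^ q) ≤ B ^ q) :
    EX w (fun ω => (s * F ω + t * G ω) ^ q) ≤ (s * A + t * B) ^ q := by
  set C := s * A + t * B with hC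
  have hsA : 0 < s * A := mul_pos hs hA
  have htB : 0 < t * B := mul_pos ht hB
  have hC0 : 0 < C := add_pos hsA htB
  set a := s * A / C with ha
  set b := t * B / C with hb
  have ha0 : 0 ≤ a := (div_pos hsA hC0).le
  have hb0 : 0 ≤ b := (div_pos htB hC0).le
  have hab : a + b = 1 := by
    rw [ha, hb, ← add_div, div_self hC0.ne']
  have key : ∀ ω, (s * F ω + t * G ω) ^ q ≤
      C ^ q * (a / A ^ q) * (F ω) ^ q + C ^ q * (b / B ^ q) * (G ω) ^ q := by
    intro ω
    have e1 : s * F ω + t * G ω = C * (a * (F ω / A) + b * (G ω / B)) := by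
      rw [ha, hb]
      field_simp
    have c1 := (convexOn_pow (𝕜 := ℝ) q).2 (Set.mem_Ici.2 (div_nonneg (hF ω) hA.le))
      (Set.mem_Ici.2 (div_nonneg (hG ω) hB.le)) ha0 hb0 hab
    simp only [smul_eq_mul] at c1
    rw [e1, mul_pow]
    refine le_trans (mul_le_mul_of_nonneg_left c1 (pow_nonneg hC0.le q)) (le_of_eq ?_)
    rw [div_pow, div_pow]
    ring
  refine le_trans (EX_mono hw key) ?_
  rw [EX_add, EX_mul, EX_mul]
  have q1 : C ^ q * (a / A ^ q) * EX w (fun ω => F ω ^ q) ≤ C ^ q * a := by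
    have : C ^ q * (a / A ^ q) * EX w (fun ω => F ω ^ q) ≤ C ^ q * (a / A ^ q) * A ^ q :=
      mul_le_mul_of_nonneg_left h1 (by positivity)
    refine le_trans this (le_of_eq ?_)
    have : A ^ q ≠ 0 := (pow_pos hA q).ne'
    field_simp
  have q2 : C ^ q * (b / B ^ q) * EX w (fun ω => G ω ^ q) ≤ C ^ q * b := by
    have : C ^ q * (b / B ^ q) * EX w (fun ω => G ω ^ q) ≤ C ^ q * (b / B ^ q) * B ^ q :=
      mul_le_mul_of_nonneg_left h2 (by positivity)
    refine le_trans this (le_of_eq ?_)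
    have : B ^ q ≠ 0 := (pow_pos hB q).ne'
    field_simp
  calc _ ≤ C ^ q * a + C ^ q * b := add_le_add q1 q2
    _ = C ^ q := by rw [← mul_add, hab, mul_one]

/-- Minkowski's inequality in `L^q`, without roots -/
theorem mink {q : ℕ} {w : E → L → ℝ} (hw : ∀ e l, 0 ≤ w e l) {s t : ℝ} (hs : 0 ≤ s)
    (ht : 0 ≤ t) {F G : (E → L) → ℝ} (hF : ∀ ω, 0 ≤ F ω) (hG : ∀ ω, 0 ≤ G ω) {A B : ℝ}
    (hA : 0 ≤ A) (hB : 0 ≤ B) (h1 : EX w (fun ω => F ω ^ q) ≤ A ^ q)
    (h2 : EX w (fun ω => G ω ^ q) ≤ B ^ q) :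
    EX w (fun ω => (s * F ω + t * G ω) ^ q) ≤ (s * A + t * B) ^ q := by
  have h : ∀ ε : ℝ, 0 < ε → EX w (fun ω => (s * F ω + t * G ω) ^ q) ≤
      ((s + ε) * (A + ε) + (t + ε) * (B + ε)) ^ q := by
    intro ε hε
    have h1' : EX w (fun ω => F ω ^ q) ≤ (A + ε) ^ q :=
      h1.trans (pow_le_pow_left₀ hA (by linarith) q)
    have h2' : EX w (fun ω => G ω ^ q) ≤ (B + ε) ^ q :=
      h2.trans (pow_le_pow_left₀ hB (by linarith) q)
    refine le_trans (EX_mono hw fun ω => ?_)
      (mink_pos hw (add_pos_of_nonneg_of_pos hs hε) (add_pos_of_nonneg_of_pos ht hε) hF hG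
        (add_pos_of_nonneg_of_pos hA hε) (add_pos_of_nonneg_of_pos hB hε) h1' h2')
    have := hF ω
    have := hG ω
    refine pow_le_pow_left₀ (by positivity) ?_ q
    nlinarith [mul_nonneg hε.le (hF ω), mul_nonneg hε.le (hG ω)]
  have hc : Filter.Tendsto (fun ε : ℝ => ((s + ε) * (A + ε) + (t + ε) * (B + ε)) ^ q)
      (nhdsWithin 0 (Set.Ioi 0)) (nhds ((s * A + t * B) ^ q)) := by
    have : Continuous (fun ε : ℝ => ((s + ε) * (A + ε) + (t + ε) * (B + ε)) ^ q) := by
      fun_prop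
    have h0 := (this.tendsto 0).mono_left (nhdsWithin_le_nhds (s := Set.Ioi 0))
    simpa using h0
  exact ge_of_tendsto hc (eventually_nhdsWithin_of_forall fun ε hε => h ε hε)

end Mink

section Tens

variable {L : Type*} [Fintype L] [DecidableEq L]

/-- the one-coordinate inequality -/
def HOne (q : ℕ) (w k c : L → ℝ) (θ : ℝ) : Prop :=
  ∀ a b : ℝ, 0 ≤ a → 0 ≤ b →
    ∑ l, w l * (max ((1 - k l) * a + k l * b) (c l * b)) ^ (2 * q) ≤
      ((1 - θ) * a ^ 2 + θ * b ^ 2) ^ q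

/-- the recursive majorant -/
noncomputable def MM : (n : ℕ) → (Fin n → L → ℝ) → (Fin n → L → ℝ) → ((Fin n → Bool) → ℝ) →
    (Fin n → L) → ℝ
  | 0, _, _, φ, _ => φ Fin.elim0
  | n + 1, k, c, φ, μ =>
    max ((1 - k 0 (μ 0)) * MM n (fun i => k i.succ) (fun i => c i.succ)
          (fun ν => φ (Fin.cons false ν)) (fun i => μ i.succ) +
        k 0 (μ 0) * MM n (fun i => k i.succ) (fun i => c i.succ)
          (fun ν => φ (Fin.cons true ν)) (fun i => μ i.succ))
      (c 0 (μ 0) * MM n (fun i => k i.succ) (fun i => c i.succ)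
          (fun ν => φ (Fin.cons true ν)) (fun i => μ i.succ))

theorem MM_nonneg : ∀ (n : ℕ) (k c : Fin n → L → ℝ) (_ : ∀ i l, 0 ≤ k i l)
    (_ : ∀ i l, k i l ≤ 1) (φ : (Fin n → Bool) → ℝ) (_ : ∀ ν, 0 ≤ φ ν)
    (μ : Fin n → L), 0 ≤ MM n k c φ μ
  | 0, _, _, _, _, _, h, _ => h _
  | n + 1, k, c, hk0, hk1, φ, h, μ => by
    have ih := fun b => MM_nonneg n (fun i => k i.succ) (fun i => c i.succ)
      (fun i l => hk0 _ l) (fun i l => hk1 _ l) (fun ν => φ (Fin.cons b ν)) (fun ν => h _)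
      (fun i => μ i.succ)
    rw [MM]
    exact le_max_of_le_left (add_nonneg (mul_nonneg (by linarith [hk1 0 (μ 0)]) (ih _))
      (mul_nonneg (hk0 _ _) (ih _)))

/-- **The functional inequality**, on `Fin n` -/
theorem hc_fin {q : ℕ} : ∀ (n : ℕ) (w k c : Fin n → L → ℝ) (_ : ∀ i l, 0 ≤ w i l)
    (_ : ∀ i l, 0 ≤ k i l) (_ : ∀ i l, k i l ≤ 1) (θ : Fin n → ℝ) (_ : ∀ i, 0 ≤ θ i)
    (_ : ∀ i, θ i ≤ 1) (_ : ∀ i, HOne q (w i) (k i) (c i) (θ i))
    (φ : (Fin n → Bool) → ℝ) (_ : ∀ ν, 0 ≤ φ ν),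
    EX w (fun μ => (MM n k c φ μ) ^ (2 * q)) ≤ (EX (H830.bw θ) (fun ν => (φ ν) ^ 2)) ^ q
  | 0, w, k, c, _, _, _, θ, _, _, _, φ, _ => by
    simp only [EX, Fintype.sum_unique, univ_eq_empty, prod_empty, one_mul, MM]
    rw [pow_mul]
    exact le_of_eq (congrArg (fun ν => ((φ ν) ^ 2) ^ q) (Subsingleton.elim _ _))
  | n + 1, w, k, c, hw, hk0, hk1, θ, hθ0, hθ1, hone, φ, hφ => by
    have ih := fun b => hc_fin (q := q) n (fun i => w i.succ) (fun i => k i.succ)
      (fun i => c i.succ)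
      (fun i l => hw _ l) (fun i l => hk0 _ l) (fun i l => hk1 _ l) (fun i => θ i.succ)
      (fun i => hθ0 _) (fun i => hθ1 _) (fun i => hone _)
      (fun ν => φ (Fin.cons b ν)) (fun ν => hφ _)
    set A := fun b (μ : Fin n → L) => MM n (fun i => k i.succ) (fun i => c i.succ)
      (fun ν => φ (Fin.cons b ν)) μ with hA
    have hA0 : ∀ b μ, 0 ≤ A b μ := fun b μ => MM_nonneg n _ _ (fun i l => hk0 _ l)
      (fun i l => hk1 _ l) _ (fun ν => hφ _) μ
    have e0 : ∀ l (μ : Fin n → L), MM (n + 1) k c φ (Fin.cons l μ) =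
        max ((1 - k 0 l) * A false μ + k 0 l * A true μ) (c 0 l * A true μ) := fun l μ => rfl
    rw [EX_cons, EX_cons]
    simp only [e0]
    have s1 : ∑ l, w 0 l * EX (fun i : Fin n => w i.succ)
        (fun μ => (max ((1 - k 0 l) * A false μ + k 0 l * A true μ) (c 0 l * A true μ)) ^
          (2 * q)) ≤ EX (fun i : Fin n => w i.succ)
        (fun μ => ((1 - θ 0) * (A false μ) ^ 2 + θ 0 * (A true μ) ^ 2) ^ q) := by
      simp only [← EX_mul]
      rw [← EX_sum]
      exact EX_mono (fun i l => hw _ l) fun μ => hone 0 _ _ (hA0 _ μ) (hA0 _ μ)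
    refine s1.trans ?_
    set C := fun b => EX (fun i : Fin n => H830.bw θ i.succ)
      (fun ν => (φ (Fin.cons b ν)) ^ 2) with hC
    have hC0 : ∀ b, 0 ≤ C b := fun b => EX_nonneg
      (fun i l => H830.bw_nonneg hθ0 hθ1 _ _) fun ν => sq_nonneg _
    have ih' : ∀ b, EX (fun i : Fin n => w i.succ) (fun μ => ((A b μ) ^ 2) ^ q) ≤ (C b) ^ q := by
      intro b
      have := ih b
      simp only [← pow_mul]
      exact this
    have m := mink (q := q) (fun (i : Fin n) l => hw i.succ l) (by linarith [hθ1 0] : 0 ≤ 1 - θ 0)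
      (hθ0 0) (fun μ => sq_nonneg (A false μ)) (fun μ => sq_nonneg (A true μ)) (hC0 false)
      (hC0 true) (ih' false) (ih' true)
    refine m.trans (le_of_eq ?_)
    congr 1
    rw [Fintype.sum_bool]
    simp only [H830.bw, if_true, hC]
    simp only [Bool.false_eq_true, if_false]
    ring

theorem le_MM : ∀ (n : ℕ) (k c : Fin n → L → ℝ) (_ : ∀ i l, 0 ≤ k i l)
    (_ : ∀ i l, k i l ≤ 1) (_ : ∀ i l, 0 ≤ c i l) (φ : (Fin n → Bool) → ℝ) (_ : ∀ ν, 0 ≤ φ ν)
    (μ : Fin n → L) (y : Fin n → Bool),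
    (∏ i, if y i = true then c i (μ i) else 1) *
      EX (H830.bw fun i => if y i = true then 1 else k i (μ i)) φ ≤ MM n k c φ μ
  | 0, k, c, _, _, _, φ, _, μ, y => by
    simp only [EX, Fintype.sum_unique, univ_eq_empty, prod_empty, one_mul, MM]
    exact le_of_eq (congrArg φ (Subsingleton.elim _ _))
  | n + 1, k, c, hk0, hk1, hc, φ, hφ, μ, y => by
    have ih := fun b => le_MM n (fun i => k i.succ) (fun i => c i.succ) (fun i l => hk0 _ l)
      (fun i l => hk1 _ l) (fun i l => hc _ l) (fun ν => φ (Fin.cons b ν)) (fun ν => hφ _)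
      (fun i => μ i.succ) (fun i => y i.succ)
    rw [Fin.prod_univ_succ, EX_cons, Fintype.sum_bool, MM]
    set P := ∏ i : Fin n, if y i.succ = true then c i.succ (μ i.succ) else 1 with hP
    have hP0 : 0 ≤ P := prod_nonneg fun i _ => by split_ifs; exacts [hc _ _, zero_le_one]
    set G := fun b => EX (fun i : Fin n => H830.bw
      (fun i : Fin (n + 1) => if y i = true then 1 else k i (μ i)) i.succ)
      (fun ν => φ (Fin.cons b ν)) with hG
    have ih' : ∀ b, P * G b ≤ MM n (fun i => k i.succ) (fun i => c i.succ)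
      (fun ν => φ (Fin.cons b ν)) (fun i => μ i.succ) := ih
    have b1 := ih' true
    have b2 := ih' false
    by_cases hy : y 0 = true
    · refine le_max_of_le_right ?_
      simp only [H830.bw, if_pos hy, if_true, Bool.false_eq_true, if_false, sub_self, zero_mul,
        add_zero, one_mul]
      rw [mul_assoc]
      exact mul_le_mul_of_nonneg_left b1 (hc _ _)
    · refine le_max_of_le_left ?_
      simp only [H830.bw, if_neg hy, if_true, Bool.false_eq_true, if_false, one_mul]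
      have c1 := mul_le_mul_of_nonneg_left b1 (hk0 0 (μ 0))
      have c2 := mul_le_mul_of_nonneg_left b2 (by linarith [hk1 0 (μ 0)] : 0 ≤ 1 - k 0 (μ 0))
      calc _ = (1 - k 0 (μ 0)) * (P * G false) + k 0 (μ 0) * (P * G true) := by ring
        _ ≤ _ := add_le_add c2 c1

end Tens

section Push

variable {E L C : Type*} [Fintype E] [DecidableEq E] [Fintype L] [DecidableEq L]
  [Fintype C] [DecidableEq C]

/-- pushing labels forward, with maps that depend on the element -/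
theorem EX_pushd (f : E → L → C) (w : E → L → ℝ) (F : (E → C) → ℝ) :
    EX w (fun ω => F (fun e => f e (ω e))) = EX (fun e c => ∑ l with f e l = c, w e l) F := by
  unfold EX
  have h : ∀ κ : E → C, (∏ e, ∑ l with f e l = κ e, w e l) =
      ∑ ω : E → L with (fun e => f e (ω e)) = κ, ∏ e, w e (ω e) := by
    intro κ
    rw [Finset.prod_univ_sum]
    refine sum_congr ?_ fun _ _ => rfl
    ext ω
    simp only [Fintype.mem_piFinset, mem_filter, mem_univ, true_and]
    exact funext_iff.symm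
  simp only [h, sum_mul]
  rw [← sum_fiberwise_of_maps_to (s := univ) (t := univ)
    (g := fun ω : E → L => fun e => f e (ω e)) (fun _ _ => mem_univ _)]
  refine sum_congr rfl fun κ _ => sum_congr rfl fun ω hω => ?_
  rw [(mem_filter.1 hω).2]

end Push

section Gen

variable {E L : Type*} [Fintype E] [DecidableEq E] [Fintype L] [DecidableEq L]

/-- **The functional inequality, event form.** Whenever `Rel μ`, there is a forced set `y` whose
price times the average of `φ` is at least `β`. -/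
theorem hc_event {q : ℕ} (w k c : E → L → ℝ) (hw : ∀ e l, 0 ≤ w e l) (hk0 : ∀ e l, 0 ≤ k e l)
    (hk1 : ∀ e l, k e l ≤ 1) (hc : ∀ e l, 0 ≤ c e l) (θ : E → ℝ) (hθ0 : ∀ e, 0 ≤ θ e)
    (hθ1 : ∀ e, θ e ≤ 1) (hone : ∀ e, HOne q (w e) (k e) (c e) (θ e))
    (φ : (E → Bool) → ℝ) (hφ : ∀ ν, 0 ≤ φ ν) (Rel : (E → L) → Prop) [DecidablePred Rel]
    {β : ℝ} (hβ : 0 ≤ β)
    (hRel : ∀ μ, Rel μ → ∃ y : E → Bool, β ≤ (∏ e, if y e = true then c e (μ e) else 1) *
      EX (H830.bw fun e => if y e = true then 1 else k e (μ e)) φ) :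
    β ^ (2 * q) * EX w (fun μ => if Rel μ then 1 else 0) ≤
      (EX (H830.bw θ) (fun ν => (φ ν) ^ 2)) ^ q := by
  set σ := Fintype.equivFin E
  set n := Fintype.card E
  have a1 := hc_fin (q := q) n (fun i => w (σ.symm i)) (fun i => k (σ.symm i))
    (fun i => c (σ.symm i)) (fun i l => hw _ l) (fun i l => hk0 _ l) (fun i l => hk1 _ l)
    (fun i => θ (σ.symm i)) (fun i => hθ0 _) (fun i => hθ1 _) (fun i => hone _)
    (fun ν => φ (ν ∘ σ)) (fun ν => hφ _)
  have a2 : EX (H830.bw θ) (fun ν => (φ ν) ^ 2) =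
      EX (H830.bw fun i => θ (σ.symm i)) (fun ν => (φ (ν ∘ σ)) ^ 2) := by
    rw [EX_reindex σ]
    congr 1
  rw [a2]
  refine le_trans ?_ a1
  rw [EX_reindex σ, ← EX_mul]
  refine EX_mono (fun i l => hw _ l) fun μ => ?_
  by_cases hr : Rel (μ ∘ σ)
  · rw [if_pos hr, mul_one]
    obtain ⟨y, hy⟩ := hRel _ hr
    have b1 := le_MM n (fun i => k (σ.symm i)) (fun i => c (σ.symm i)) (fun i l => hk0 _ l)
      (fun i l => hk1 _ l) (fun i l => hc _ l) (fun ν => φ (ν ∘ σ)) (fun ν => hφ _) μ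
      (y ∘ σ.symm)
    have b2 : EX (H830.bw fun e => if y e = true then 1 else k e ((μ ∘ σ) e)) φ =
        EX (H830.bw fun i : Fin n => if (y ∘ σ.symm) i = true then 1 else k (σ.symm i) (μ i))
          (fun ν => φ (ν ∘ σ)) := by
      rw [EX_reindex σ]
      congr 1
      funext i b
      simp [H830.bw]
    have b3 : (∏ e, if y e = true then c e ((μ ∘ σ) e) else 1) =
        ∏ i : Fin n, if (y ∘ σ.symm) i = true then c (σ.symm i) (μ i) else 1 := by
      rw [← Equiv.prod_comp σ.symm]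
      refine prod_congr rfl fun i _ => ?_
      simp
    rw [b2, b3] at hy
    exact pow_le_pow_left₀ hβ (hy.trans b1) (2 * q)
  · rw [if_neg hr, mul_zero]
    exact pow_nonneg (MM_nonneg n _ _ (fun i l => hk0 _ l) (fun i l => hk1 _ l) _
      (fun ν => hφ _) μ) _

end Gen

/-! ## Four labels -/

/-- labels: `v` (test), `g` (in `G`), `s` (sample outside `G`), `o` (nothing) -/
inductive L4 | v | g | s | o
  deriving DecidableEq

instance : Fintype L4 := ⟨{.v, .g, .s, .o}, by intro x; cases x <;> decide⟩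

theorem sum_L4 (f : L4 → ℝ) : ∑ l, f l = f .v + f .g + f .s + f .o := by
  have h : (univ : Finset L4) = {.v, .g, .s, .o} := rfl
  rw [h, sum_insert (by decide), sum_insert (by decide), sum_insert (by decide), sum_singleton]
  ring

/-- probability of being in the natural set -/
def k4 (t : ℝ) : L4 → ℝ
  | .v => 0
  | .g => 1
  | .s => t
  | .o => 0

/-- price -/
def c4 (η : ℝ) : L4 → ℝ
  | .v => η
  | _ => 0

section Four

variable {E : Type*} [Fintype E] [DecidableEq E]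

/-- sets of labels, as in `H250.Ker` -/
def ls (l : L4) (μ : E → L4) : Finset E := univ.filter fun e => μ e = l

theorem hone4 {q : ℕ} (hq : 2 ≤ q) {w : L4 → ℝ} (hw : ∀ l, 0 ≤ w l) (hsum : ∑ l, w l = 1)
    {t η : ℝ} (ht : 0 ≤ t) (ht1 : t ≤ 1) (hη : 0 ≤ η) (hη1 : η ≤ 1 / 2)
    (h1 : (2 * q - 1 : ℝ) * (w .g + w .s * t ^ 2) ≤ w .g + w .s * t)
    (h2 : 4 ^ q * (w .g + w .s * t ^ 2) ≤ q * (w .g + w .s * t))
    (h3 : 4 ^ q * (w .g + w .s * t ^ (2 * q)) + w .v ≤ (w .g + w .s * t) ^ q) :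
    HOne q w (k4 t) (c4 η) (w .g + w .s * t) := by
  intro a b ha hb
  rw [sum_L4] at hsum
  rw [sum_L4]
  have m := H318.hc_scalar hq (hw .g) (hw .s) ht ht1 (hw .v) hη hη1
    (by have := hw .o; linarith : w .g + w .s + w .v ≤ 1) h1 h2 h3 ha hb
  have e1 : max ((1 - k4 t .v) * a + k4 t .v * b) (c4 η .v * b) = max a (η * b) := by
    simp [k4, c4]
  have e2 : max ((1 - k4 t .g) * a + k4 t .g * b) (c4 η .g * b) = b := by
    simp [k4, c4, hb]
  have e3 : max ((1 - k4 t .s) * a + k4 t .s * b) (c4 η .s * b) = (1 - t) * a + t * b := by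
    have : 0 ≤ (1 - t) * a + t * b := by
      have := mul_nonneg (by linarith : (0:ℝ) ≤ 1 - t) ha
      have := mul_nonneg ht hb
      linarith
    simp [k4, c4, this]
  have e4 : max ((1 - k4 t .o) * a + k4 t .o * b) (c4 η .o * b) = a := by
    simp [k4, c4, ha]
  rw [e1, e2, e3, e4]
  have e5 : w .o = 1 - w .g - w .s - w .v := by linarith
  rw [e5]
  linarith

/-- **(H), set form.** `V, G, S'` are the label sets (`S' = S - G`), contexts `Y ⊆ V` with at most
`m` elements, `N` a thinning of `S'` at rate `t`. -/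
theorem hc_four {q : ℕ} (hq : 2 ≤ q) (w : E → L4 → ℝ) (hw : ∀ e l, 0 ≤ w e l)
    (hsum : ∀ e, ∑ l, w e l = 1) (t : E → ℝ) (ht : ∀ e, 0 ≤ t e) (ht1 : ∀ e, t e ≤ 1)
    {η : ℝ} (hη : 0 ≤ η) (hη1 : η ≤ 1 / 2)
    (h1 : ∀ e, (2 * q - 1 : ℝ) * (w e .g + w e .s * t e ^ 2) ≤ w e .g + w e .s * t e)
    (h2 : ∀ e, 4 ^ q * (w e .g + w e .s * t e ^ 2) ≤ q * (w e .g + w e .s * t e))
    (h3 : ∀ e, 4 ^ q * (w e .g + w e .s * t e ^ (2 * q)) + w e .v ≤
      (w e .g + w e .s * t e) ^ q)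
    (φ : Finset E → ℝ) (hφ : ∀ A, 0 ≤ φ A) (Rel : (E → L4) → Prop) [DecidablePred Rel]
    {δ : ℝ} (hδ : 0 ≤ δ) (m : ℕ)
    (hRel : ∀ μ, Rel μ → ∃ Y ⊆ ls .v μ, Y.card ≤ m ∧
      δ ≤ H250.TH t (ls .s μ) fun N => φ (Y ∪ ls .g μ ∪ N)) :
    (η ^ m * δ) ^ (2 * q) * EX w (fun μ => if Rel μ then 1 else 0) ≤
      (H250.TH (fun e => w e .g + w e .s * t e) univ (fun A => φ A ^ 2)) ^ q := by
  have hone : ∀ e, HOne q (w e) (k4 (t e)) (c4 η) (w e .g + w e .s * t e) := fun e =>
    hone4 hq (hw e) (hsum e) (ht e) (ht1 e) hη hη1 (h1 e) (h2 e) (h3 e)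
  have hs1 : ∀ e, w e .g + w e .s * t e ≤ 1 := by
    intro e
    have := hsum e
    rw [sum_L4] at this
    nlinarith [hw e .v, hw e .g, hw e .s, hw e .o, ht e, ht1 e]
  have hmain := hc_event (q := q) w (fun e => k4 (t e)) (fun _ => c4 η) hw
    (fun e l => by cases l <;> simp [k4, ht e]) (fun e l => by cases l <;> simp [k4, ht1 e])
    (fun e l => by cases l <;> simp [c4, hη]) (fun e => w e .g + w e .s * t e)
    (fun e => by have := hw e .g; have := mul_nonneg (hw e .s) (ht e); linarith) hs1 hone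
    (fun ν => φ (H250.tset ν)) (fun ν => hφ _) Rel (β := η ^ m * δ)
    (mul_nonneg (pow_nonneg hη m) hδ) ?_
  · refine hmain.trans (le_of_eq ?_)
    congr 1
    unfold H250.TH
    congr 1
    funext e b
    cases b <;> simp [H830.bw, H250.bw]
  · intro μ hμ
    obtain ⟨Y, hYV, hYm, hY⟩ := hRel μ hμ
    refine ⟨fun e => decide (e ∈ Y), ?_⟩
    have p1 : (∏ e, if decide (e ∈ Y) = true then c4 η (μ e) else 1) = η ^ Y.card := by
      rw [← prod_const, ← prod_subset (subset_univ Y)]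
      · refine prod_congr rfl fun e he => ?_
        have := hYV he
        simp only [ls, mem_filter, mem_univ, true_and] at this
        simp [he, this, c4]
      · intro e _ he
        simp [he]
    rw [p1]
    have p2 : EX (H830.bw fun e => if decide (e ∈ Y) = true then 1 else k4 (t e) (μ e))
        (fun ν => φ (H250.tset ν)) =
        H250.TH t (ls .s μ) fun N => φ (Y ∪ ls .g μ ∪ N) := by
      unfold H250.TH
      have q1 := EX_pushd (fun (e : E) (b : Bool) => decide (e ∈ Y) || decide (μ e = .g) || b)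
        (H250.bw t (ls .s μ)) (fun ν => φ (H250.tset ν))
      have q2 : ∀ ν : E → Bool, H250.tset (fun e => decide (e ∈ Y) || decide (μ e = .g) || ν e) =
          Y ∪ ls .g μ ∪ H250.tset ν := by
        intro ν
        ext e
        simp [H250.tset, ls, or_assoc]
      simp only [q2] at q1
      rw [q1]
      congr 1
      funext e b
      rw [sum_filter, Fintype.sum_bool]
      by_cases hY : e ∈ Y
      · have := hYV hY
        simp only [ls, mem_filter, mem_univ, true_and] at this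
        cases b <;> simp [H830.bw, H250.bw, hY, ls, this]
      · cases hμe : μ e <;> cases b <;> simp [H830.bw, H250.bw, hY, ls, hμe, k4]
    rw [p2]
    exact mul_le_mul (pow_le_pow_of_le_one hη (by linarith) hYm) hY hδ (pow_nonneg hη _)

end Four

end Vale.Agent.P331.H300
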